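import Vale.Agent.Lib.P141.Defs

/-!
# P141: sums of unit bumps centred at integer points
-/

open MeasureTheory Filter Topology
open scoped ENNReal NNReal

namespace Vale.Agent.Lib.P141

/-- a fixed smooth bump: `1` on `[-1/8,1/8]`, supported in `(-1/4,1/4)`, values in `[0,1]` -/
noncomputable def bump : ContDiffBump (0 : ℝ) := ⟨1 / 8, 1 / 4, by norm_num, by norm_num⟩

/-- the sum of the translates of the bump to the points of `S` -/
noncomputable def comb (S : Finset ℤ) (y : ℝ) : ℝ := ∑ s ∈ S, bump (y - s)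

lemma bump_eq_one {z : ℝ} (h : |z| ≤ 1 / 8) : bump z = 1 := by
  apply ContDiffBump.one_of_mem_closedBall
  rw [Metric.mem_closedBall, Real.dist_eq, sub_zero]
  exact h

lemma bump_eq_zero {z : ℝ} (h : 1 / 4 ≤ |z|) : bump z = 0 := by
  apply ContDiffBump.zero_of_le_dist
  rw [Real.dist_eq, sub_zero]
  exact h

lemma comb_nonneg (S : Finset ℤ) (y : ℝ) : 0 ≤ comb S y :=
  Finset.sum_nonneg fun _ _ => bump.nonneg

/-- at most one term of the sum is nonzero (two distinct integers are at distance `≥ 1`) -/
lemma comb_le_one (S : Finset ℤ) (y : ℝ) : comb S y ≤ 1 := by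
  classical
  by_cases hex : ∃ s ∈ S, |y - s| < 1 / 4
  · obtain ⟨s, hs, hsy⟩ := hex
    have hsum : comb S y = bump (y - s) := by
      unfold comb
      refine Finset.sum_eq_single_of_mem s hs ?_
      intro t _ hts
      apply bump_eq_zero
      have h1 : (1 : ℝ) ≤ |(t : ℝ) - s| := by
        have h2 : (1 : ℤ) ≤ |t - s| := Int.one_le_abs (sub_ne_zero.mpr hts)
        have h3 : ((1 : ℤ) : ℝ) ≤ ((|t - s| : ℤ) : ℝ) := by exact_mod_cast h2
        simpa using h3
      have h4 : |(t : ℝ) - s| ≤ |y - s| + |y - t| := by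
        have : (t : ℝ) - s = (y - s) - (y - t) := by ring
        rw [this]
        exact abs_sub _ _
      linarith
    rw [hsum]
    exact bump.le_one
  · have hz : comb S y = 0 := by
      unfold comb
      refine Finset.sum_eq_zero ?_
      intro t ht
      apply bump_eq_zero
      by_contra hlt
      exact hex ⟨t, ht, not_le.mp hlt⟩
    rw [hz]
    exact zero_le_one

lemma one_le_comb {S : Finset ℤ} {s : ℤ} (hs : s ∈ S) {y : ℝ} (hy : |y - s| ≤ 1 / 8) :
    1 ≤ comb S y := by
  have h1 : bump (y - s) ≤ comb S y := by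
    unfold comb
    exact Finset.single_le_sum (f := fun t : ℤ => bump (y - t)) (fun _ _ => bump.nonneg) hs
  rw [bump_eq_one hy] at h1
  exact h1

lemma exists_of_comb_ne_zero {S : Finset ℤ} {y : ℝ} (h : comb S y ≠ 0) :
    ∃ s ∈ S, |y - s| < 1 / 4 := by
  by_contra hex
  apply h
  unfold comb
  refine Finset.sum_eq_zero ?_
  intro t ht
  apply bump_eq_zero
  by_contra hlt
  exact hex ⟨t, ht, not_le.mp hlt⟩

lemma continuous_comb (S : Finset ℤ) : Continuous (comb S) := by
  unfold comb
  refine continuous_finsetSum S ?_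
  intro s _
  exact bump.continuous.comp (continuous_id.sub continuous_const)

end Vale.Agent.Lib.P141
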