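import Vale.Agent.Lib.P141.Comb

/-!
# P141: the combs as Schwartz functions, and their `L^p` norms
-/

open MeasureTheory Filter Topology
open scoped ENNReal NNReal ContDiff

namespace Vale.Agent.Lib.P141

private lemma contDiff_comb_aux (S : Finset ℤ) : ContDiff ℝ ∞ (comb S) := by
  unfold comb
  refine ContDiff.sum fun s _ => ?_
  exact bump.contDiff.comp (contDiff_id.sub contDiff_const)

lemma contDiff_combC (S : Finset ℤ) : ContDiff ℝ ∞ (fun y : ℝ => (comb S y : ℂ)) :=
  Complex.ofRealCLM.contDiff.comp (contDiff_comb_aux S)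

private lemma support_comb_subset (S : Finset ℤ) :
    Function.support (comb S) ⊆ ⋃ s ∈ S, Metric.ball (s : ℝ) (1 / 4) := by
  intro y hy
  obtain ⟨s, hs, h⟩ := exists_of_comb_ne_zero (S := S) (y := y) hy
  simp only [Set.mem_iUnion]
  exact ⟨s, hs, by rw [Metric.mem_ball, Real.dist_eq]; exact h⟩

private lemma supportC_comb_subset (S : Finset ℤ) :
    Function.support (fun y : ℝ => (comb S y : ℂ)) ⊆ ⋃ s ∈ S, Metric.ball (s : ℝ) (1 / 4) := by
  intro y hy
  apply support_comb_subset S
  intro h0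
  apply hy
  simp [h0]

lemma hasCompactSupport_combC (S : Finset ℤ) :
    HasCompactSupport (fun y : ℝ => (comb S y : ℂ)) := by
  have hK : IsCompact (⋃ s ∈ S, Metric.closedBall (s : ℝ) (1 / 4)) :=
    S.isCompact_biUnion fun s _ => isCompact_closedBall _ _
  refine HasCompactSupport.intro hK fun y hy => ?_
  by_contra h
  apply hy
  have := supportC_comb_subset S h
  simp only [Set.mem_iUnion] at this ⊢
  obtain ⟨s, hs, hb⟩ := this
  exact ⟨s, hs, Metric.ball_subset_closedBall hb⟩

/-- the comb as a Schwartz function -/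
noncomputable def combS (S : Finset ℤ) : SchwartzMap ℝ ℂ :=
  (hasCompactSupport_combC S).toSchwartzMap (contDiff_combC S)

@[simp] lemma combS_apply (S : Finset ℤ) (y : ℝ) : combS S y = (comb S y : ℂ) := rfl

/-- `|comb S| ≤ 1` and `comb S` vanishes outside a set of measure `≤ |S|/2`
(`eLpNorm_restrict_eq_of_support_subset`, `eLpNorm_le_of_ae_bound`, `measure_biUnion_finset_le`,
`Real.volume_ball`). For `p = ∞` the right side is `1`. -/
lemma eLpNorm_combS_le (S : Finset ℤ) (p : ℝ≥0∞) :
    eLpNorm (combS S) p volume ≤ ENNReal.ofReal ((S.card : ℝ) / 2) ^ p.toReal⁻¹ := by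
  set U : Set ℝ := ⋃ s ∈ S, Metric.ball (s : ℝ) (1 / 4) with hU
  have hsupp : Function.support (combS S : ℝ → ℂ) ⊆ U := supportC_comb_subset S
  rw [← eLpNorm_restrict_eq_of_support_subset hsupp]
  have hb : ∀ᵐ x ∂(volume.restrict U), ‖(combS S : ℝ → ℂ) x‖ ≤ 1 := by
    refine Filter.Eventually.of_forall fun x => ?_
    rw [combS_apply, Complex.norm_real, Real.norm_eq_abs, abs_of_nonneg (comb_nonneg S x)]
    exact comb_le_one S x
  refine (eLpNorm_le_of_ae_bound hb).trans ?_
  rw [ENNReal.ofReal_one, mul_one, Measure.restrict_apply_univ]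
  refine ENNReal.rpow_le_rpow ?_ (inv_nonneg.mpr ENNReal.toReal_nonneg)
  calc volume U ≤ ∑ s ∈ S, volume (Metric.ball (s : ℝ) (1 / 4)) :=
        measure_biUnion_finset_le S _
    _ = ∑ _s ∈ S, ENNReal.ofReal (1 / 2) := by
        refine Finset.sum_congr rfl fun s _ => ?_
        rw [Real.volume_ball]
        norm_num
    _ = ENNReal.ofReal ((S.card : ℝ) / 2) := by
        rw [Finset.sum_const, nsmul_eq_mul, ← ENNReal.ofReal_natCast, ← ENNReal.ofReal_mul (by positivity)]
        congr 1
        ring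
    _ ≤ _ := le_rfl

end Vale.Agent.Lib.P141
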