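import Mathlib

/-!
# P141: the trilinear Hilbert transform (slopes 1, 2, 3): definitions
-/

open MeasureTheory Filter Topology
open scoped ENNReal NNReal

namespace Vale.Agent.Lib.P141

/-- the truncated trilinear Hilbert transform `T_{ε,R}(f₁,f₂,f₃)(x)`:
the integral of `f₁(x-t) f₂(x-2t) f₃(x-3t) / t` over `ε < |t| < R` -/
noncomputable def truncT (ε R : ℝ) (f₁ f₂ f₃ : ℝ → ℂ) (x : ℝ) : ℂ :=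
  ∫ t in {t : ℝ | ε < |t| ∧ |t| < R}, f₁ (x - t) * f₂ (x - 2 * t) * f₃ (x - 3 * t) / (t : ℂ)

/-- the trilinear Hilbert transform: the principal value `lim_{ε → 0+, R → ∞} T_{ε,R}` -/
noncomputable def triT (f₁ f₂ f₃ : ℝ → ℂ) (x : ℝ) : ℂ :=
  limUnder ((𝓝[>] (0 : ℝ)) ×ˢ (atTop : Filter ℝ))
    (fun q : ℝ × ℝ => truncT q.1 q.2 f₁ f₂ f₃ x)

/-- Hölder tuples: `1 < p₁, p₂, p₃ ≤ ∞`, `0 < r < ∞`, `1/r = 1/p₁ + 1/p₂ + 1/p₃` -/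
structure IsHolder (p₁ p₂ p₃ r : ℝ≥0∞) : Prop where
  lt₁ : 1 < p₁
  lt₂ : 1 < p₂
  lt₃ : 1 < p₃
  pos : 0 < r
  fin : r < ∞
  rel : 1 / r = 1 / p₁ + 1 / p₂ + 1 / p₃

/-- `T` is bounded at `(p₁,p₂,p₃,r)`: `‖T(f₁,f₂,f₃)‖_r ≤ C ‖f₁‖_{p₁} ‖f₂‖_{p₂} ‖f₃‖_{p₃}` for all
Schwartz functions -/
def BoundedAt (p₁ p₂ p₃ r : ℝ≥0∞) : Prop :=
  ∃ C : ℝ≥0, ∀ f₁ f₂ f₃ : SchwartzMap ℝ ℂ,
    eLpNorm (triT f₁ f₂ f₃) r volume ≤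
      C * (eLpNorm f₁ p₁ volume * eLpNorm f₂ p₂ volume * eLpNorm f₃ p₃ volume)

end Vale.Agent.Lib.P141
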