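import Vale.Agent.Lib.P141.DigitsA

/-!
# P141: the configurations obtained from a digit pattern
-/

open scoped ENNReal NNReal

namespace Vale.Agent.Lib.P141

variable {P : Finset (ℤ × ℤ)} {b : ℤ}

private lemma digits_proj_shift (i : ℤ) (g : ℤ × ℤ) (L : ℤ) :
    proj i (g.1, g.2 + L) = proj i g - i * L := by
  simp only [proj]
  ring

private lemma digits_card_shift_le (P : Finset (ℤ × ℤ)) (b : ℤ) (i : ℤ) (k : ℕ) (L : ℤ) :
    (((expand P b k).image (fun g : ℤ × ℤ => (g.1, g.2 + L))).image (proj i)).card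
      ≤ (P.image (proj i)).card ^ k := by
  have h : ((expand P b k).image (fun g : ℤ × ℤ => (g.1, g.2 + L))).image (proj i)
      = ((expand P b k).image (proj i)).image (fun s => s - i * L) := by
    rw [Finset.image_image, Finset.image_image]
    apply Finset.image_congr
    intro g _
    exact digits_proj_shift i g L
  rw [h]
  exact le_trans Finset.card_image_le (card_image_proj_expand_le P b i k)

/-- **The configurations.** With `D` a bound for `|proj 1 u|`, `|proj 2 u|` (`u ∈ P`), `L = (2 D + 1) b^k`,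
`G = (expand P b k).image (fun g => (g.1, g.2 + L))`, `S_i = G.image (proj i)` and `K = 4 D + 1`:
`proj i (g.1, g.2 + L) = proj i g - i L`; `s₁ - s₂ = proj 1 g - proj 2 g' + L ∈ [b^k, (4D+1) b^k]`. -/
theorem exists_config (hb : 2 ≤ b) (hP : DistinctMod P b) :
    ∃ K : ℝ, 1 ≤ K ∧ ∀ k : ℕ, ∃ (G : Finset (ℤ × ℤ)) (S₁ S₂ S₃ : Finset ℤ),
      Sep S₁ S₂ (K * (b : ℝ) ^ k) ∧
      (∀ g ∈ G, g.1 - g.2 ∈ S₁ ∧ g.1 - 2 * g.2 ∈ S₂ ∧ g.1 - 3 * g.2 ∈ S₃) ∧
      (G.image Prod.fst).card = P.card ^ k ∧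
      S₁.card ≤ (P.image (proj 1)).card ^ k ∧
      S₂.card ≤ (P.image (proj 2)).card ^ k ∧
      S₃.card ≤ (P.image (proj 3)).card ^ k := by
  obtain ⟨D, hD⟩ : ∃ D : ℤ, D = ∑ u ∈ P, (|proj 1 u| + |proj 2 u|) := ⟨_, rfl⟩
  have hD0 : 0 ≤ D := by
    rw [hD]
    exact Finset.sum_nonneg (fun u _ => add_nonneg (abs_nonneg _) (abs_nonneg _))
  have hterm : ∀ u ∈ P, |proj 1 u| + |proj 2 u| ≤ D := by
    intro u hu
    rw [hD]
    exact Finset.single_le_sum (f := fun u => |proj 1 u| + |proj 2 u|)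
      (fun v _ => add_nonneg (abs_nonneg _) (abs_nonneg _)) hu
  have hD1 : ∀ u ∈ P, |proj 1 u| ≤ D := fun u hu =>
    le_trans (le_add_of_nonneg_right (abs_nonneg _)) (hterm u hu)
  have hD2 : ∀ u ∈ P, |proj 2 u| ≤ D := fun u hu =>
    le_trans (le_add_of_nonneg_left (abs_nonneg _)) (hterm u hu)
  refine ⟨4 * (D : ℝ) + 1, ?_, ?_⟩
  · have : (0 : ℝ) ≤ (D : ℝ) := by exact_mod_cast hD0
    linarith
  intro k
  obtain ⟨L, hL⟩ : ∃ L : ℤ, L = (2 * D + 1) * b ^ k := ⟨_, rfl⟩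
  have hbk : (1 : ℤ) ≤ b ^ k := one_le_pow₀ (by omega)
  refine ⟨(expand P b k).image (fun g : ℤ × ℤ => (g.1, g.2 + L)),
    ((expand P b k).image (fun g : ℤ × ℤ => (g.1, g.2 + L))).image (proj 1),
    ((expand P b k).image (fun g : ℤ × ℤ => (g.1, g.2 + L))).image (proj 2),
    ((expand P b k).image (fun g : ℤ × ℤ => (g.1, g.2 + L))).image (proj 3),
    ?_, ?_, ?_, digits_card_shift_le P b 1 k L, digits_card_shift_le P b 2 k L,
    digits_card_shift_le P b 3 k L⟩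
  · -- separation
    intro s₁ hs₁ s₂ hs₂
    simp only [Finset.mem_image] at hs₁ hs₂
    obtain ⟨_, ⟨g, hg, rfl⟩, rfl⟩ := hs₁
    obtain ⟨_, ⟨g', hg', rfl⟩, rfl⟩ := hs₂
    rw [digits_proj_shift, digits_proj_shift]
    have h1 := abs_le.1 (abs_proj_expand_le hb 1 hD0 hD1 k g hg)
    have h2 := abs_le.1 (abs_proj_expand_le hb 2 hD0 hD2 k g' hg')
    have e : proj 1 g - 1 * L - (proj 2 g' - 2 * L) = proj 1 g - proj 2 g' + L := by ring
    rw [e]
    have hLe : L = 2 * (D * b ^ k) + b ^ k := by rw [hL]; ring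
    constructor
    · linarith [h1.1, h2.2]
    · have h3 : proj 1 g - proj 2 g' + L ≤ (4 * D + 1) * b ^ k := by
        have : (4 * D + 1) * b ^ k = 4 * (D * b ^ k) + b ^ k := by ring
        rw [this]
        linarith [h1.2, h2.1]
      have h4 : ((proj 1 g - proj 2 g' + L : ℤ) : ℝ) ≤ (((4 * D + 1) * b ^ k : ℤ) : ℝ) := by
        exact_mod_cast h3
      have h5 : (((4 * D + 1) * b ^ k : ℤ) : ℝ) = (4 * (D : ℝ) + 1) * (b : ℝ) ^ k := by
        push_cast
        ring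
      rw [h5] at h4
      exact h4
  · intro g hg
    refine ⟨?_, ?_, ?_⟩
    · exact Finset.mem_image.2 ⟨g, hg, by simp [proj]⟩
    · exact Finset.mem_image.2 ⟨g, hg, rfl⟩
    · exact Finset.mem_image.2 ⟨g, hg, rfl⟩
  · rw [Finset.image_image]
    have : (Prod.fst ∘ fun g : ℤ × ℤ => (g.1, g.2 + L)) = Prod.fst := by
      funext g
      rfl
    rw [this]
    exact card_image_fst_expand hb hP k

end Vale.Agent.Lib.P141
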