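import Vale.Agent.Lib.P141.Kern

/-!
# P141: digit expansions of a finite pattern of pairs `(x, t)`
-/

open scoped ENNReal NNReal

namespace Vale.Agent.Lib.P141

/-- the linear form `x - i t` -/
def proj (i : ℤ) (g : ℤ × ℤ) : ℤ := g.1 - i * g.2

/-- all pairs `(∑_j x_j b^j, ∑_j t_j b^j)`, `j < k`, with digits `(x_j, t_j) ∈ P` -/
def expand (P : Finset (ℤ × ℤ)) (b : ℤ) : ℕ → Finset (ℤ × ℤ)
  | 0 => {(0, 0)}
  | k + 1 => (P ×ˢ expand P b k).image (fun q => (q.1.1 + b * q.2.1, q.1.2 + b * q.2.2))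

/-- the first coordinates of the pattern are pairwise incongruent modulo `b` -/
def DistinctMod (P : Finset (ℤ × ℤ)) (b : ℤ) : Prop :=
  ∀ u ∈ P, ∀ v ∈ P, b ∣ u.1 - v.1 → u = v

variable {P : Finset (ℤ × ℤ)} {b : ℤ}

private lemma digitsA_image_fst_succ (P : Finset (ℤ × ℤ)) (b : ℤ) (k : ℕ) :
    (expand P b (k + 1)).image Prod.fst
      = (P ×ˢ (expand P b k).image Prod.fst).image (fun q => q.1.1 + b * q.2) := by
  ext x
  simp only [expand, Finset.mem_image, Finset.mem_product]
  constructor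
  · rintro ⟨g, ⟨q, ⟨hq1, hq2⟩, rfl⟩, rfl⟩
    exact ⟨(q.1, q.2.1), ⟨hq1, q.2, hq2, rfl⟩, rfl⟩
  · rintro ⟨q, ⟨hq1, g, hg, hgq⟩, rfl⟩
    exact ⟨_, ⟨(q.1, g), ⟨hq1, hg⟩, rfl⟩, by simp [hgq]⟩

/-- induction on `k`: `u.1 + b x = v.1 + b y` forces `u = v` (mod `b`) and then `x = y` -/
lemma card_image_fst_expand (hb : 2 ≤ b) (hP : DistinctMod P b) (k : ℕ) :
    ((expand P b k).image Prod.fst).card = P.card ^ k := by
  induction k with
  | zero => simp [expand]
  | succ k ih =>
    rw [digitsA_image_fst_succ, Finset.card_image_of_injOn, Finset.card_product, ih, pow_succ,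
      mul_comm]
    intro q hq q' hq' h
    simp only [Finset.coe_product, Set.mem_prod, Finset.mem_coe] at hq hq'
    have h' : q.1.1 + b * q.2 = q'.1.1 + b * q'.2 := h
    have h1 : q.1 = q'.1 := by
      apply hP _ hq.1 _ hq'.1
      exact ⟨q'.2 - q.2, by linarith⟩
    have h2 : b * q.2 = b * q'.2 := by
      rw [h1] at h'
      linarith
    have hb0 : b ≠ 0 := by omega
    have h3 : q.2 = q'.2 := mul_left_cancel₀ hb0 h2
    exact Prod.ext h1 h3

/-- induction on `k`: `proj i (u + b g) = proj i u + b * proj i g`, so the image is contained in the image of a product -/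
lemma card_image_proj_expand_le (P : Finset (ℤ × ℤ)) (b : ℤ) (i : ℤ) (k : ℕ) :
    ((expand P b k).image (proj i)).card ≤ (P.image (proj i)).card ^ k := by
  induction k with
  | zero => simp [expand]
  | succ k ih =>
    have hsub : (expand P b (k + 1)).image (proj i)
        ⊆ ((P.image (proj i)) ×ˢ ((expand P b k).image (proj i))).image
            (fun q => q.1 + b * q.2) := by
      intro x hx
      simp only [expand, Finset.mem_image, Finset.mem_product] at hx ⊢
      obtain ⟨g, ⟨q, ⟨hq1, hq2⟩, rfl⟩, rfl⟩ := hx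
      refine ⟨(proj i q.1, proj i q.2), ⟨⟨q.1, hq1, rfl⟩, ⟨q.2, hq2, rfl⟩⟩, ?_⟩
      simp only [proj]
      ring
    calc ((expand P b (k + 1)).image (proj i)).card
        ≤ (((P.image (proj i)) ×ˢ ((expand P b k).image (proj i))).image
            (fun q => q.1 + b * q.2)).card := Finset.card_le_card hsub
      _ ≤ ((P.image (proj i)) ×ˢ ((expand P b k).image (proj i))).card := Finset.card_image_le
      _ = (P.image (proj i)).card * ((expand P b k).image (proj i)).card :=
          Finset.card_product _ _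
      _ ≤ (P.image (proj i)).card * (P.image (proj i)).card ^ k := Nat.mul_le_mul_left _ ih
      _ = (P.image (proj i)).card ^ (k + 1) := by rw [pow_succ, mul_comm]

private lemma digitsA_abs_proj_le (hb : 2 ≤ b) (i : ℤ) {D : ℤ} (hD0 : 0 ≤ D)
    (hD : ∀ u ∈ P, |proj i u| ≤ D) (k : ℕ) :
    ∀ g ∈ expand P b k, |proj i g| ≤ D * (b ^ k - 1) := by
  induction k with
  | zero =>
    intro g hg
    simp only [expand, Finset.mem_singleton] at hg
    subst hg
    simp [proj]
  | succ k ih =>
    intro g hg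
    simp only [expand, Finset.mem_image, Finset.mem_product] at hg
    obtain ⟨q, ⟨hq1, hq2⟩, rfl⟩ := hg
    have e : proj i (q.1.1 + b * q.2.1, q.1.2 + b * q.2.2) = proj i q.1 + b * proj i q.2 := by
      simp only [proj]
      ring
    have hb0 : 0 ≤ b := by omega
    have h1 := hD _ hq1
    have h2 := ih _ hq2
    have h3 : b * |proj i q.2| ≤ b * (D * (b ^ k - 1)) := mul_le_mul_of_nonneg_left h2 hb0
    have h4 : D * 2 ≤ D * b := mul_le_mul_of_nonneg_left hb hD0
    calc |proj i (q.1.1 + b * q.2.1, q.1.2 + b * q.2.2)|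
        = |proj i q.1 + b * proj i q.2| := by rw [e]
      _ ≤ |proj i q.1| + |b * proj i q.2| := abs_add_le _ _
      _ = |proj i q.1| + b * |proj i q.2| := by rw [abs_mul, abs_of_nonneg hb0]
      _ ≤ D + b * (D * (b ^ k - 1)) := add_le_add h1 h3
      _ ≤ D * (b ^ (k + 1) - 1) := by
          have : D + b * (D * (b ^ k - 1)) = D * (b ^ (k + 1) - 1) - (D * b - D * 2) := by ring
          rw [this]
          linarith

/-- induction on `k` (prove the stronger `|proj i g| ≤ D * (b ^ k - 1)`, using `b ≥ 2`) -/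
lemma abs_proj_expand_le (hb : 2 ≤ b) (i : ℤ) {D : ℤ} (hD0 : 0 ≤ D) (hD : ∀ u ∈ P, |proj i u| ≤ D)
    (k : ℕ) :
    ∀ g ∈ expand P b k, |proj i g| ≤ D * b ^ k := by
  intro g hg
  have h := digitsA_abs_proj_le hb i hD0 hD k g hg
  have : D * (b ^ k - 1) = D * b ^ k - D := by ring
  linarith

end Vale.Agent.Lib.P141
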