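import Mathlib

/-!
# P141: an elementary lemma on geometric growth
-/

namespace Vale.Agent.Lib.P141

private theorem geo_swap (x : ℝ) (hx : 0 ≤ x) (a : ℝ) (k : ℕ) : (x ^ k) ^ a = (x ^ a) ^ k := by
  rw [← Real.rpow_natCast, ← Real.rpow_mul hx, mul_comm, Real.rpow_mul hx, Real.rpow_natCast]

private theorem geo_bd {m n k : ℕ} {a : ℝ} (ha : 0 ≤ a) (hm : m ≤ n ^ k) :
    ((m : ℝ) / 2) ^ a ≤ ((n : ℝ) ^ a) ^ k := by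
  calc ((m : ℝ) / 2) ^ a ≤ ((n : ℝ) ^ k) ^ a := by
        apply Real.rpow_le_rpow (by positivity) _ ha
        have h1 : (m : ℝ) ≤ (n : ℝ) ^ k := by exact_mod_cast hm
        have h2 : (0 : ℝ) ≤ m := by positivity
        linarith
    _ = ((n : ℝ) ^ a) ^ k := geo_swap _ (by positivity) _ _

/-- elementary: a geometric sequence of ratio `> 1` is unbounded. If `n₀^ρ > b n₁^{a₁} n₂^{a₂} n₃^{a₃}` the inequalities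
`1/(32 K b^k) (n₀^k/16)^ρ ≤ C (m₁/2)^{a₁} (m₂/2)^{a₂} (m₃/2)^{a₃}`, `m_i ≤ n_i^k`, cannot hold for all `k`. -/
theorem no_geometric {n₀ n₁ n₂ n₃ : ℕ} {b K C ρ a₁ a₂ a₃ : ℝ} (hb : 0 < b) (hK : 1 ≤ K) (hC : 0 ≤ C)
    (hn₁ : 0 < n₁) (hn₂ : 0 < n₂) (hn₃ : 0 < n₃)
    (hρ : 0 ≤ ρ) (h₁ : 0 ≤ a₁) (h₂ : 0 ≤ a₂) (h₃ : 0 ≤ a₃)
    (hcond : b * (n₁ : ℝ) ^ a₁ * (n₂ : ℝ) ^ a₂ * (n₃ : ℝ) ^ a₃ < (n₀ : ℝ) ^ ρ)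
    (H : ∀ k : ℕ, ∃ m₁ m₂ m₃ : ℕ, m₁ ≤ n₁ ^ k ∧ m₂ ≤ n₂ ^ k ∧ m₃ ≤ n₃ ^ k ∧
      1 / (32 * (K * b ^ k)) * (((n₀ ^ k : ℕ) : ℝ) / 16) ^ ρ ≤
        C * (((m₁ : ℝ) / 2) ^ a₁ * ((m₂ : ℝ) / 2) ^ a₂ * ((m₃ : ℝ) / 2) ^ a₃)) : False := by
  have hp1 : 0 < (n₁ : ℝ) ^ a₁ := Real.rpow_pos_of_pos (by exact_mod_cast hn₁) _
  have hp2 : 0 < (n₂ : ℝ) ^ a₂ := Real.rpow_pos_of_pos (by exact_mod_cast hn₂) _
  have hp3 : 0 < (n₃ : ℝ) ^ a₃ := Real.rpow_pos_of_pos (by exact_mod_cast hn₃) _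
  generalize hA1 : (n₁ : ℝ) ^ a₁ = A1 at hp1 hcond
  generalize hA2 : (n₂ : ℝ) ^ a₂ = A2 at hp2 hcond
  generalize hA3 : (n₃ : ℝ) ^ a₃ = A3 at hp3 hcond
  generalize hN : (n₀ : ℝ) ^ ρ = N at hcond
  have hDpos : 0 < b * A1 * A2 * A3 := by positivity
  have hq : 1 < N / (b * A1 * A2 * A3) := by
    rw [one_lt_div hDpos]; exact hcond
  have h16 : (0 : ℝ) < (16 : ℝ) ^ ρ := Real.rpow_pos_of_pos (by norm_num) _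
  obtain ⟨k, hk⟩ := pow_unbounded_of_one_lt (32 * K * (16 : ℝ) ^ ρ * C) hq
  obtain ⟨m₁, m₂, m₃, hm₁, hm₂, hm₃, h⟩ := H k
  have e0 : (((n₀ ^ k : ℕ) : ℝ) / 16) ^ ρ = N ^ k / (16 : ℝ) ^ ρ := by
    rw [Real.div_rpow (by positivity) (by positivity)]
    congr 1
    push_cast
    rw [geo_swap _ (by positivity), hN]
  have b1 : ((m₁ : ℝ) / 2) ^ a₁ ≤ A1 ^ k := hA1 ▸ geo_bd h₁ hm₁
  have b2 : ((m₂ : ℝ) / 2) ^ a₂ ≤ A2 ^ k := hA2 ▸ geo_bd h₂ hm₂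
  have b3 : ((m₃ : ℝ) / 2) ^ a₃ ≤ A3 ^ k := hA3 ▸ geo_bd h₃ hm₃
  have c1 : 0 ≤ ((m₁ : ℝ) / 2) ^ a₁ := by positivity
  have c2 : 0 ≤ ((m₂ : ℝ) / 2) ^ a₂ := by positivity
  have c3 : 0 ≤ ((m₃ : ℝ) / 2) ^ a₃ := by positivity
  have hprod : ((m₁ : ℝ) / 2) ^ a₁ * ((m₂ : ℝ) / 2) ^ a₂ * ((m₃ : ℝ) / 2) ^ a₃
      ≤ A1 ^ k * A2 ^ k * A3 ^ k := by
    apply mul_le_mul (mul_le_mul b1 b2 c2 (by positivity)) b3 c3 (by positivity)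
  have h' : 1 / (32 * (K * b ^ k)) * (N ^ k / (16 : ℝ) ^ ρ) ≤ C * (A1 ^ k * A2 ^ k * A3 ^ k) := by
    rw [← e0]
    exact h.trans (mul_le_mul_of_nonneg_left hprod hC)
  have hKpos : 0 < K := by linarith
  have hbk : 0 < b ^ k := by positivity
  have h'' : N ^ k ≤ 32 * K * (16 : ℝ) ^ ρ * C * (b * A1 * A2 * A3) ^ k := by
    have e1 : 1 / (32 * (K * b ^ k)) * (N ^ k / (16 : ℝ) ^ ρ)
        = N ^ k / (32 * (K * b ^ k) * (16 : ℝ) ^ ρ) := by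
      field_simp
    rw [e1, div_le_iff₀ (by positivity)] at h'
    calc N ^ k ≤ C * (A1 ^ k * A2 ^ k * A3 ^ k) * (32 * (K * b ^ k) * (16 : ℝ) ^ ρ) := h'
      _ = 32 * K * (16 : ℝ) ^ ρ * C * (b * A1 * A2 * A3) ^ k := by
        rw [mul_pow, mul_pow, mul_pow]; ring
  rw [div_pow, lt_div_iff₀ (by positivity)] at hk
  linarith

end Vale.Agent.Lib.P141
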