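import Vale.Agent.Lib.P141.Patterns

/-!
# P141: unboundedness for every `r < 1/2` at suitable tuples
-/

open MeasureTheory Filter Topology
open scoped ENNReal NNReal

namespace Vale.Agent.Lib.P141

private lemma half_log_aux : 2 * Real.log 5 < 3 * Real.log 3 := by
  have h1 : 2 * Real.log 5 = Real.log 25 := by
    rw [show (25 : ℝ) = 5 ^ 2 by norm_num, Real.log_pow]
    norm_num
  have h2 : 3 * Real.log 3 = Real.log 27 := by
    rw [show (27 : ℝ) = 3 ^ 3 by norm_num, Real.log_pow]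
    norm_num
  rw [h1, h2]
  exact Real.log_lt_log (by norm_num) (by norm_num)

/-- numerical lemma: with `a₁ = a₃ = 1 - δ`, the claim is `3^(2δ) < (9/5)^{a₂}`; `3^(2δ) ≤ 3^(a₂/2) = (√3)^{a₂} < (9/5)^{a₂}` -/
lemma cond9 {δ a₂ : ℝ} (hδ : 0 ≤ δ) (h₂ : 0 < a₂) (h : 4 * δ ≤ a₂) :
    (9 : ℝ) * 3 ^ (1 - δ) * 5 ^ a₂ * 3 ^ (1 - δ) < 9 ^ ((1 - δ) + a₂ + (1 - δ)) := by
  have hL3 : 0 < Real.log 3 := Real.log_pos (by norm_num)
  have hL9 : Real.log 9 = 2 * Real.log 3 := by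
    rw [show (9 : ℝ) = 3 ^ 2 by norm_num, Real.log_pow]
    norm_num
  have h9 : (9 : ℝ) = Real.exp (2 * Real.log 3) := by
    rw [← hL9, Real.exp_log (by norm_num)]
  have e3 : ∀ x : ℝ, (3 : ℝ) ^ x = Real.exp (Real.log 3 * x) := fun x =>
    Real.rpow_def_of_pos (by norm_num) x
  have e5 : ∀ x : ℝ, (5 : ℝ) ^ x = Real.exp (Real.log 5 * x) := fun x =>
    Real.rpow_def_of_pos (by norm_num) x
  have e9 : ∀ x : ℝ, (9 : ℝ) ^ x = Real.exp (2 * Real.log 3 * x) := fun x => by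
    rw [Real.rpow_def_of_pos (by norm_num) x, hL9]
  rw [e3, e5, e9]
  nth_rewrite 1 [h9]
  rw [← Real.exp_add, ← Real.exp_add, ← Real.exp_add, Real.exp_lt_exp]
  have haux := half_log_aux
  have h1 : 2 * δ * Real.log 3 ≤ a₂ / 2 * Real.log 3 := by
    apply mul_le_mul_of_nonneg_right _ hL3.le
    linarith
  have h2 : a₂ * (2 * Real.log 5) < a₂ * (3 * Real.log 3) := mul_lt_mul_of_pos_left haux h₂
  nlinarith

/-- **For every `1/3 < r < 1/2` there is a Hölder tuple with this `r` at which `T` is unbounded.** With `e = 1/r - 2 ∈ (0,1)`,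
`δ = e (1 - e) / 4`, take `1/p₁ = 1/p₃ = 1 - δ`, `1/p₂ = e + 2 δ < 1`. -/
theorem exists_not_boundedAt {r : ℝ≥0∞} (h1 : 1 / 3 < r) (h2 : r < 1 / 2) :
    ∃ p₁ p₂ p₃ : ℝ≥0∞, IsHolder p₁ p₂ p₃ r ∧ ¬ BoundedAt p₁ p₂ p₃ r := by
  have hr0 : 0 < r := lt_of_le_of_lt zero_le h1
  have hrtop : r < ∞ := lt_trans h2 (by simp)
  set s : ℝ := r.toReal with hs
  have hs0 : 0 < s := ENNReal.toReal_pos hr0.ne' hrtop.ne
  have hrs : r = ENNReal.ofReal s := (ENNReal.ofReal_toReal hrtop.ne).symm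
  have hs1 : 1 / 3 < s := by
    have := (ENNReal.toReal_lt_toReal (by simp) hrtop.ne).2 h1
    simpa using this
  have hs2 : s < 1 / 2 := by
    have := (ENNReal.toReal_lt_toReal hrtop.ne (by simp)).2 h2
    simpa using this
  set ρ : ℝ := s⁻¹ with hρ
  have hρ2 : 2 < ρ := by
    rw [hρ, lt_inv_comm₀ (by norm_num) hs0]
    linarith
  have hρ3 : ρ < 3 := by
    rw [hρ, inv_lt_comm₀ hs0 (by norm_num)]
    linarith
  set e : ℝ := ρ - 2 with he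
  have he0 : 0 < e := by linarith
  have he1 : e < 1 := by linarith
  set δ : ℝ := e * (1 - e) / 4 with hδ
  have hδ0 : 0 < δ := by
    rw [hδ]
    have : 0 < e * (1 - e) := mul_pos he0 (by linarith)
    linarith
  have hδ1 : δ < 1 / 4 := by
    rw [hδ]
    nlinarith
  set a : ℝ := 1 - δ with ha
  set a₂ : ℝ := e + 2 * δ with ha₂
  have ha0 : 0 < a := by linarith
  have ha1 : a < 1 := by linarith
  have ha₂0 : 0 < a₂ := by linarith
  have ha₂1 : a₂ < 1 := by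
    rw [ha₂, hδ]
    nlinarith
  have hsum : ρ = a + a₂ + a := by
    rw [ha, ha₂, he]
    ring
  have key : ∀ x : ℝ, 0 < x → x < 1 →
      1 < ENNReal.ofReal x⁻¹ ∧ 1 / ENNReal.ofReal x⁻¹ = ENNReal.ofReal x ∧
        (ENNReal.ofReal x⁻¹).toReal⁻¹ = x := by
    intro x hx0 hx1
    refine ⟨?_, ?_, ?_⟩
    · rw [← ENNReal.ofReal_one]
      exact (ENNReal.ofReal_lt_ofReal_iff (inv_pos.mpr hx0)).2 ((one_lt_inv₀ hx0).2 hx1)
    · rw [one_div, ← ENNReal.ofReal_inv_of_pos (inv_pos.mpr hx0), inv_inv]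
    · rw [ENNReal.toReal_ofReal (inv_pos.mpr hx0).le, inv_inv]
  obtain ⟨k1, k2, k3⟩ := key a ha0 ha1
  obtain ⟨l1, l2, l3⟩ := key a₂ ha₂0 ha₂1
  have hH : IsHolder (ENNReal.ofReal a⁻¹) (ENNReal.ofReal a₂⁻¹) (ENNReal.ofReal a⁻¹) r := by
    refine ⟨k1, l1, k1, hr0, hrtop, ?_⟩
    rw [k2, l2, ← ENNReal.ofReal_add ha0.le ha₂0.le, ← ENNReal.ofReal_add (by linarith) ha0.le,
      ← hsum, hρ, one_div, hrs, ENNReal.ofReal_inv_of_pos hs0]
  refine ⟨_, _, _, hH, not_boundedAt_9 hH ?_⟩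
  rw [k3, l3]
  have hρ' : r.toReal⁻¹ = (1 - δ) + a₂ + (1 - δ) := by
    rw [← hs, ← hρ, hsum]
  rw [hρ']
  refine cond9 hδ0.le ha₂0 ?_
  rw [ha₂, hδ]
  nlinarith

end Vale.Agent.Lib.P141
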