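import Vale.Agent.Lib.P141.CombS

/-!
# P141: the trilinear Hilbert transform of three combs is an absolutely convergent integral
-/

open MeasureTheory Filter Topology
open scoped ENNReal NNReal

namespace Vale.Agent.Lib.P141

/-- the (real) integrand -/
noncomputable def kern (S₁ S₂ S₃ : Finset ℤ) (x t : ℝ) : ℝ :=
  comb S₁ (x - t) * comb S₂ (x - 2 * t) * comb S₃ (x - 3 * t) / t

/-- separation: all differences `s₁ - s₂` lie in `[1, M]` -/
def Sep (S₁ S₂ : Finset ℤ) (M : ℝ) : Prop :=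
  ∀ s₁ ∈ S₁, ∀ s₂ ∈ S₂, (1 : ℤ) ≤ s₁ - s₂ ∧ ((s₁ - s₂ : ℤ) : ℝ) ≤ M

variable {S₁ S₂ S₃ : Finset ℤ} {M : ℝ}

/-- if the integrand does not vanish then `x - t` is `1/4`-close to some `s₁`, `x - 2t` to some `s₂`, and
`t = (x - t) - (x - 2t)` is `1/2`-close to `s₁ - s₂ ∈ [1, M]` -/
lemma kern_support (hsep : Sep S₁ S₂ M) {x t : ℝ} (h : kern S₁ S₂ S₃ x t ≠ 0) :
    1 / 2 < t ∧ t < M + 1 / 2 := by
  have h1 : comb S₁ (x - t) ≠ 0 := by
    intro h0
    apply h
    unfold kern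
    rw [h0]
    simp
  have h2 : comb S₂ (x - 2 * t) ≠ 0 := by
    intro h0
    apply h
    unfold kern
    rw [h0]
    simp
  obtain ⟨s₁, hs₁, d₁⟩ := exists_of_comb_ne_zero h1
  obtain ⟨s₂, hs₂, d₂⟩ := exists_of_comb_ne_zero h2
  obtain ⟨e1, e2⟩ := hsep s₁ hs₁ s₂ hs₂
  have e1' : (1 : ℝ) ≤ ((s₁ - s₂ : ℤ) : ℝ) := by exact_mod_cast e1
  rw [Int.cast_sub] at e1' e2
  rw [abs_lt] at d₁ d₂
  constructor
  · linarith [d₁.1, d₁.2, d₂.1, d₂.2]
  · linarith [d₁.1, d₁.2, d₂.1, d₂.2]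

lemma kern_nonneg (hsep : Sep S₁ S₂ M) (x t : ℝ) : 0 ≤ kern S₁ S₂ S₃ x t := by
  by_cases h : kern S₁ S₂ S₃ x t = 0
  · rw [h]
  · have ht := (kern_support hsep h).1
    unfold kern
    exact div_nonneg (mul_nonneg (mul_nonneg (comb_nonneg _ _) (comb_nonneg _ _))
      (comb_nonneg _ _)) (by linarith)

private lemma kern_le_two (hsep : Sep S₁ S₂ M) (x t : ℝ) : kern S₁ S₂ S₃ x t ≤ 2 := by
  by_cases h : kern S₁ S₂ S₃ x t = 0
  · rw [h]; norm_num
  · have ht := (kern_support hsep h).1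
    have ht0 : 0 < t := by linarith
    unfold kern
    rw [div_le_iff₀ ht0]
    have a1 := comb_le_one S₁ (x - t)
    have a2 := comb_le_one S₂ (x - 2 * t)
    have a3 := comb_le_one S₃ (x - 3 * t)
    have b1 := comb_nonneg S₁ (x - t)
    have b2 := comb_nonneg S₂ (x - 2 * t)
    have b3 := comb_nonneg S₃ (x - 3 * t)
    have c1 : comb S₁ (x - t) * comb S₂ (x - 2 * t) ≤ 1 := mul_le_one₀ a1 b2 a2
    have c2 : comb S₁ (x - t) * comb S₂ (x - 2 * t) * comb S₃ (x - 3 * t) ≤ 1 :=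
      mul_le_one₀ c1 b3 a3
    linarith

private lemma kern_measurable (S₁ S₂ S₃ : Finset ℤ) (x : ℝ) : Measurable (kern S₁ S₂ S₃ x) := by
  unfold kern
  have m1 : Measurable fun t : ℝ => comb S₁ (x - t) :=
    ((continuous_comb S₁).comp (by fun_prop)).measurable
  have m2 : Measurable fun t : ℝ => comb S₂ (x - 2 * t) :=
    ((continuous_comb S₂).comp (by fun_prop)).measurable
  have m3 : Measurable fun t : ℝ => comb S₃ (x - 3 * t) :=
    ((continuous_comb S₃).comp (by fun_prop)).measurable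
  exact ((m1.mul m2).mul m3).div measurable_id

/-- `0 ≤ kern ≤ 2`, measurable, vanishing outside `(1/2, M + 1/2)` -/
lemma kern_integrable (hsep : Sep S₁ S₂ M) (x : ℝ) : Integrable (kern S₁ S₂ S₃ x) := by
  have hg : Integrable ((Set.Ioo (1 / 2 : ℝ) (M + 1 / 2)).indicator (fun _ : ℝ => (2 : ℝ))) := by
    rw [integrable_indicator_iff measurableSet_Ioo]
    exact integrableOn_const (by simp)
  refine hg.mono' (kern_measurable S₁ S₂ S₃ x).aestronglyMeasurable (Eventually.of_forall ?_)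
  intro t
  rw [Real.norm_eq_abs, abs_of_nonneg (kern_nonneg hsep x t)]
  by_cases h : kern S₁ S₂ S₃ x t = 0
  · rw [h]
    exact Set.indicator_nonneg (fun _ _ => by norm_num) t
  · have ht := kern_support hsep h
    rw [Set.indicator_of_mem (show t ∈ Set.Ioo (1 / 2 : ℝ) (M + 1 / 2) from ht)]
    exact kern_le_two hsep x t

/-- the truncations do not see the truncation (`setIntegral_eq_integral_of_forall_compl_eq_zero`,
`integral_ofReal`) -/
lemma truncT_comb (hsep : Sep S₁ S₂ M) {ε R : ℝ} (hε : ε ≤ 1 / 2) (hR : M + 1 / 2 ≤ R) (x : ℝ) :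
    truncT ε R (combS S₁) (combS S₂) (combS S₃) x = ((∫ t, kern S₁ S₂ S₃ x t : ℝ) : ℂ) := by
  unfold truncT
  have e : ∀ t : ℝ, combS S₁ (x - t) * combS S₂ (x - 2 * t) * combS S₃ (x - 3 * t) / (t : ℂ)
      = ((kern S₁ S₂ S₃ x t : ℝ) : ℂ) := by
    intro t
    unfold kern
    simp only [combS_apply]
    push_cast
    rfl
  simp only [e]
  rw [setIntegral_eq_integral_of_forall_compl_eq_zero]
  · exact integral_complex_ofReal
  intro t ht
  by_contra h
  have h' : kern S₁ S₂ S₃ x t ≠ 0 := by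
    intro h0
    apply h
    rw [h0]
    simp
  obtain ⟨t1, t2⟩ := kern_support hsep h'
  apply ht
  have : |t| = t := abs_of_pos (by linarith)
  show ε < |t| ∧ |t| < R
  rw [this]
  constructor <;> linarith

/-- hence the principal value exists and is the integral (`Tendsto.limUnder_eq`, the function is eventually
constant along `𝓝[>] 0 ×ˢ atTop`) -/
lemma triT_comb (hsep : Sep S₁ S₂ M) (x : ℝ) :
    triT (combS S₁) (combS S₂) (combS S₃) x = ((∫ t, kern S₁ S₂ S₃ x t : ℝ) : ℂ) := by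
  unfold triT
  apply Tendsto.limUnder_eq
  have h1 : ∀ᶠ a in 𝓝[>] (0 : ℝ), a ≤ 1 / 2 :=
    eventually_nhdsWithin_of_eventually_nhds (eventually_le_nhds (by norm_num))
  have h2 : ∀ᶠ b in (atTop : Filter ℝ), M + 1 / 2 ≤ b := eventually_ge_atTop _
  have h3 : ∀ᶠ q in (𝓝[>] (0 : ℝ)) ×ˢ (atTop : Filter ℝ), q.1 ≤ 1 / 2 ∧ M + 1 / 2 ≤ q.2 :=
    h1.prod_mk h2
  refine tendsto_const_nhds.congr' ?_
  filter_upwards [h3] with q hq
  exact (truncT_comb hsep hq.1 hq.2 x).symm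

end Vale.Agent.Lib.P141
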