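import Vale.Agent.Lib.P141.LowerA

/-!
# P141: lower bound for the `L^r` quasi-norm of the trilinear Hilbert transform of three combs
-/

open MeasureTheory Filter Topology
open scoped ENNReal NNReal

namespace Vale.Agent.Lib.P141

variable {S₁ S₂ S₃ : Finset ℤ} {M : ℝ}

/-- the intervals of radius `1/32` around distinct integers are disjoint -/
private lemma lower_disjoint {a b : ℤ} (hab : a ≠ b) :
    Disjoint (Set.Icc ((a : ℝ) - 1 / 32) ((a : ℝ) + 1 / 32))
      (Set.Icc ((b : ℝ) - 1 / 32) ((b : ℝ) + 1 / 32)) := by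
  rw [Set.disjoint_left]
  rintro x ⟨h1, h2⟩ ⟨h3, h4⟩
  rcases lt_or_gt_of_ne hab with h | h
  · have : (a : ℝ) + 1 ≤ b := by exact_mod_cast h
    linarith
  · have : (b : ℝ) + 1 ≤ a := by exact_mod_cast h
    linarith

/-- the measure of the union of the intervals -/
private lemma lower_volume (P : Finset ℤ) :
    volume (⋃ a ∈ P, Set.Icc ((a : ℝ) - 1 / 32) ((a : ℝ) + 1 / 32))
      = ENNReal.ofReal ((P.card : ℝ) / 16) := by
  rw [measure_biUnion_finset (fun a _ b _ hab => lower_disjoint hab)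
    (fun a _ => measurableSet_Icc)]
  have h : ∀ a ∈ P, volume (Set.Icc ((a : ℝ) - 1 / 32) ((a : ℝ) + 1 / 32))
      = ENNReal.ofReal (1 / 16) := by
    intro a _
    rw [Real.volume_Icc]
    congr 1
    ring
  rw [Finset.sum_congr rfl h, Finset.sum_const, nsmul_eq_mul,
    ← ENNReal.ofReal_natCast, ← ENNReal.ofReal_mul (Nat.cast_nonneg _)]
  congr 1
  ring

/-- `‖T‖ ≥ 1/(32 M)` on the union of the intervals `[x₀ - 1/32, x₀ + 1/32]`, `x₀ ∈ G.image Prod.fst`, which are pairwise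
disjoint and of length `1/16`. No measurability of `T` is needed: use `eLpNorm_eq_lintegral_rpow_enorm_toReal`,
`lintegral_mono` against the indicator of the union, `lintegral_indicator_const`, `measure_biUnion_finset`,
`Real.volume_Icc`. -/
theorem eLpNorm_triT_lower (hM : 1 ≤ M) (hsep : Sep S₁ S₂ M) (G : Finset (ℤ × ℤ))
    (hG : ∀ g ∈ G, g.1 - g.2 ∈ S₁ ∧ g.1 - 2 * g.2 ∈ S₂ ∧ g.1 - 3 * g.2 ∈ S₃)
    {r : ℝ≥0∞} (hr0 : r ≠ 0) (hr : r ≠ ∞) :
    ENNReal.ofReal (1 / (32 * M)) *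
        ENNReal.ofReal (((G.image Prod.fst).card : ℝ) / 16) ^ r.toReal⁻¹ ≤
      eLpNorm (triT (combS S₁) (combS S₂) (combS S₃)) r volume := by
  have hp : 0 < r.toReal := ENNReal.toReal_pos hr0 hr
  set p : ℝ := r.toReal with hpdef
  set P : Finset ℤ := G.image Prod.fst with hP
  set U : Set ℝ := ⋃ a ∈ P, Set.Icc ((a : ℝ) - 1 / 32) ((a : ℝ) + 1 / 32) with hU
  have hUm : MeasurableSet U :=
    Finset.measurableSet_biUnion _ (fun a _ => measurableSet_Icc)
  set c : ℝ≥0∞ := ENNReal.ofReal (1 / (32 * M)) with hc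
  -- pointwise lower bound
  have hpt : ∀ x ∈ U, c ≤ ‖triT (combS S₁) (combS S₂) (combS S₃) x‖ₑ := by
    intro x hx
    rw [hU] at hx
    simp only [Set.mem_iUnion, exists_prop] at hx
    obtain ⟨a, haP, hxa⟩ := hx
    rw [hP, Finset.mem_image] at haP
    obtain ⟨g, hgG, rfl⟩ := haP
    obtain ⟨h1, h2, h3⟩ := hG g hgG
    have hxabs : |x - (g.1 : ℝ)| ≤ 1 / 32 := by
      rw [abs_le]
      constructor <;> linarith [hxa.1, hxa.2]
    have hlow := integral_kern_lower hM hsep h1 h2 h3 hxabs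
    rw [triT_comb hsep x, ← ofReal_norm, Complex.norm_real, hc]
    apply ENNReal.ofReal_le_ofReal
    exact hlow.trans (le_abs_self _)
  rw [eLpNorm_eq_lintegral_rpow_enorm_toReal hr0 hr]
  have h1 : c ^ p * ENNReal.ofReal ((P.card : ℝ) / 16)
      ≤ ∫⁻ x, ‖triT (combS S₁) (combS S₂) (combS S₃) x‖ₑ ^ p := by
    rw [← lower_volume P, ← lintegral_indicator_const hUm]
    apply lintegral_mono
    intro x
    by_cases hx : x ∈ U
    · rw [Set.indicator_of_mem hx]
      exact ENNReal.rpow_le_rpow (hpt x hx) hp.le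
    · rw [Set.indicator_of_notMem hx]
      exact zero_le
  calc c * ENNReal.ofReal ((P.card : ℝ) / 16) ^ p⁻¹
      = (c ^ p * ENNReal.ofReal ((P.card : ℝ) / 16)) ^ (1 / p) := by
        rw [ENNReal.mul_rpow_of_nonneg _ _ (by positivity), ← ENNReal.rpow_mul,
          mul_one_div_cancel hp.ne', ENNReal.rpow_one, one_div]
    _ ≤ _ := ENNReal.rpow_le_rpow h1 (by positivity)

end Vale.Agent.Lib.P141
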