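import Vale.Agent.Lib.P141.Kern

/-!
# P141: pointwise lower bound for the trilinear Hilbert transform of three combs
-/

open MeasureTheory Filter Topology
open scoped ENNReal NNReal

namespace Vale.Agent.Lib.P141

variable {S₁ S₂ S₃ : Finset ℤ} {M : ℝ}

/-- If `x₀ - t₀ ∈ S₁`, `x₀ - 2 t₀ ∈ S₂`, `x₀ - 3 t₀ ∈ S₃` and `|x - x₀| ≤ 1/32`, then for `|t - t₀| ≤ 1/32` the three
combs are `≥ 1` (`one_le_comb`: `|x - i t - (x₀ - i t₀)| ≤ 4/32`), and `0 < t ≤ t₀ + 1/32 ≤ M + 1/32 ≤ 2 M`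
(`t₀ = (x₀ - t₀) - (x₀ - 2 t₀) ∈ [1, M]`). So `∫ kern ≥ ∫_{[t₀ - 1/32, t₀ + 1/32]} 1/(2M) = 1/(32 M)`
(`setIntegral_le_integral`, `kern_integrable`, `kern_nonneg`, `setIntegral_mono_on`). -/
lemma integral_kern_lower (hM : 1 ≤ M) (hsep : Sep S₁ S₂ M) {x₀ t₀ : ℤ} (h₁ : x₀ - t₀ ∈ S₁)
    (h₂ : x₀ - 2 * t₀ ∈ S₂) (h₃ : x₀ - 3 * t₀ ∈ S₃) {x : ℝ} (hx : |x - x₀| ≤ 1 / 32) :
    1 / (32 * M) ≤ ∫ t, kern S₁ S₂ S₃ x t := by
  have hM0 : 0 < M := by linarith
  obtain ⟨ht1, ht2⟩ := hsep _ h₁ _ h₂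
  have e0 : x₀ - t₀ - (x₀ - 2 * t₀) = t₀ := by ring
  rw [e0] at ht1 ht2
  have ht1' : (1 : ℝ) ≤ (t₀ : ℝ) := by exact_mod_cast ht1
  obtain ⟨hx1, hx2⟩ := abs_le.mp hx
  set I : Set ℝ := Set.Icc ((t₀ : ℝ) - 1 / 32) ((t₀ : ℝ) + 1 / 32) with hI
  have hint := kern_integrable (S₃ := S₃) hsep x
  have step1 : ∫ t in I, kern S₁ S₂ S₃ x t ≤ ∫ t, kern S₁ S₂ S₃ x t :=
    setIntegral_le_integral hint (Filter.Eventually.of_forall fun t => kern_nonneg hsep x t)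
  have hpt : ∀ t ∈ I, 1 / (2 * M) ≤ kern S₁ S₂ S₃ x t := by
    intro t ht
    obtain ⟨hta, htb⟩ := ht
    have c1 : 1 ≤ comb S₁ (x - t) := by
      refine one_le_comb h₁ ?_
      push_cast
      rw [abs_le]
      constructor <;> linarith
    have c2 : 1 ≤ comb S₂ (x - 2 * t) := by
      refine one_le_comb h₂ ?_
      push_cast
      rw [abs_le]
      constructor <;> linarith
    have c3 : 1 ≤ comb S₃ (x - 3 * t) := by
      refine one_le_comb h₃ ?_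
      push_cast
      rw [abs_le]
      constructor <;> linarith
    have htpos : 0 < t := by linarith
    have ht2M : t ≤ 2 * M := by linarith
    have hprod : 1 ≤ comb S₁ (x - t) * comb S₂ (x - 2 * t) * comb S₃ (x - 3 * t) := by
      have h12 : 1 ≤ comb S₁ (x - t) * comb S₂ (x - 2 * t) := by nlinarith
      nlinarith
    unfold kern
    calc 1 / (2 * M) ≤ 1 / t := one_div_le_one_div_of_le htpos ht2M
      _ ≤ _ := div_le_div_of_nonneg_right hprod htpos.le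
  have step2 : ∫ _t in I, (1 / (2 * M) : ℝ) ≤ ∫ t in I, kern S₁ S₂ S₃ x t := by
    refine setIntegral_mono_on ?_ hint.integrableOn measurableSet_Icc hpt
    exact (integrable_const _ : Integrable (fun _ => (1 / (2 * M) : ℝ))
      (volume.restrict I))
  have step3 : ∫ _t in I, (1 / (2 * M) : ℝ) = 1 / (32 * M) := by
    rw [setIntegral_const, hI]
    simp only [Measure.real, Real.volume_Icc]
    rw [ENNReal.toReal_ofReal (by linarith)]
    simp only [smul_eq_mul]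
    field_simp
    ring
  linarith

end Vale.Agent.Lib.P141
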