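import Vale.Agent.Lib.P141.Main

/-!
# P141: two explicit patterns and the regions they give
-/

open MeasureTheory Filter Topology
open scoped ENNReal NNReal

namespace Vale.Agent.Lib.P141

/-- the pattern `(x,t) = (4u - v, 2u - v)`, `0 ≤ u, v ≤ 3`, `(u,v) ≠ (0,3), (3,0)`:
`x` runs through `-2..11`, `x - t = 2u`, `x - 2t = v`, `x - 3t = 2(v - u) ∈ {-4,-2,0,2,4}` -/
def P14 : Finset (ℤ × ℤ) :=
  {(0, 0), (-1, -1), (-2, -2), (4, 2), (3, 1), (2, 0), (1, -1), (8, 4), (7, 3), (6, 2), (5, 1),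
    (11, 5), (10, 4), (9, 3)}

/-- the pattern `(x,t) = (3a - c, a - c)`, `0 ≤ a, c ≤ 2`: `x` runs through `-2..6`, `x - t = 2a`, `x - 2t = a + c`,
`x - 3t = 2c` -/
def P9 : Finset (ℤ × ℤ) :=
  {(0, 0), (-1, -1), (-2, -2), (3, 1), (2, 0), (1, -1), (6, 2), (5, 1), (4, 0)}

lemma P14_distinct : DistinctMod P14 14 := by
  unfold DistinctMod
  decide

lemma P14_card : P14.card = 14 ∧ (P14.image (proj 1)).card = 4 ∧ (P14.image (proj 2)).card = 4 ∧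
    (P14.image (proj 3)).card = 5 := by
  decide

lemma P9_distinct : DistinctMod P9 9 := by
  unfold DistinctMod
  decide

lemma P9_card : P9.card = 9 ∧ (P9.image (proj 1)).card = 3 ∧ (P9.image (proj 2)).card = 5 ∧
    (P9.image (proj 3)).card = 3 := by
  decide

/-- region given by `P14` -/
theorem not_boundedAt_14 {p₁ p₂ p₃ r : ℝ≥0∞} (hH : IsHolder p₁ p₂ p₃ r)
    (hcond : (14 : ℝ) * 4 ^ p₁.toReal⁻¹ * 4 ^ p₂.toReal⁻¹ * 5 ^ p₃.toReal⁻¹ < 14 ^ r.toReal⁻¹) :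
    ¬ BoundedAt p₁ p₂ p₃ r := by
  refine not_boundedAt_of_pattern (P := P14) (b := 14) (by norm_num) P14_distinct hH ?_
  obtain ⟨h0, h1, h2, h3⟩ := P14_card
  rw [h0, h1, h2, h3]
  exact_mod_cast hcond

/-- region given by `P9` -/
theorem not_boundedAt_9 {p₁ p₂ p₃ r : ℝ≥0∞} (hH : IsHolder p₁ p₂ p₃ r)
    (hcond : (9 : ℝ) * 3 ^ p₁.toReal⁻¹ * 5 ^ p₂.toReal⁻¹ * 3 ^ p₃.toReal⁻¹ < 9 ^ r.toReal⁻¹) :
    ¬ BoundedAt p₁ p₂ p₃ r := by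
  refine not_boundedAt_of_pattern (P := P9) (b := 9) (by norm_num) P9_distinct hH ?_
  obtain ⟨h0, h1, h2, h3⟩ := P9_card
  rw [h0, h1, h2, h3]
  exact_mod_cast hcond

/-- numerical lemma: `14^ρ = 14^{a₁} 14^{a₂} 14^{a₃}`, so the claim is `14 < (7/2)^{a₁+a₂} (14/5)^{a₃} = (7/2)^ρ (4/5)^{a₃}`;
`(4/5)^{a₃} > 4/5` as `a₃ < 1`; `(7/2)^ρ ≥ (7/2)^(16/7) ≥ 35/2` because `(7/2)^16 ≥ (35/2)^7`, i.e. `7^9 ≥ 2^9 5^7`
(`40353607 ≥ 40000000`). -/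
lemma cond14 {a₁ a₂ a₃ ρ : ℝ} (h₁ : 0 ≤ a₁) (h₂ : 0 ≤ a₂) (h₃ : 0 ≤ a₃) (h₃' : a₃ < 1)
    (hρ : ρ = a₁ + a₂ + a₃) (hρ' : 16 / 7 ≤ ρ) :
    (14 : ℝ) * 4 ^ a₁ * 4 ^ a₂ * 5 ^ a₃ < 14 ^ ρ := by
  -- 4^a1 4^a2 5^a3 = 4^ρ (5/4)^a3
  have e1 : (4 : ℝ) ^ a₁ * 4 ^ a₂ * 5 ^ a₃ = 4 ^ ρ * (5 / 4) ^ a₃ := by
    rw [hρ, Real.rpow_add (by norm_num), Real.rpow_add (by norm_num),
      Real.div_rpow (by norm_num) (by norm_num)]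
    have : (0 : ℝ) < 4 ^ a₃ := Real.rpow_pos_of_pos (by norm_num) _
    field_simp
  have e2 : (14 : ℝ) ^ ρ = 4 ^ ρ * (7 / 2) ^ ρ := by
    rw [← Real.mul_rpow (by norm_num) (by norm_num)]
    norm_num
  have h4 : (0 : ℝ) < 4 ^ ρ := Real.rpow_pos_of_pos (by norm_num) _
  have h5 : ((5 : ℝ) / 4) ^ a₃ < 5 / 4 := by
    calc ((5 : ℝ) / 4) ^ a₃ < (5 / 4) ^ (1 : ℝ) :=
          Real.rpow_lt_rpow_of_exponent_lt (by norm_num) h₃'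
      _ = 5 / 4 := Real.rpow_one _
  have h6 : (35 : ℝ) / 2 ≤ (7 / 2) ^ ρ := by
    have h7 : ((7 : ℝ) / 2) ^ ((16 : ℝ) / 7) ≤ (7 / 2) ^ ρ :=
      Real.rpow_le_rpow_of_exponent_le (by norm_num) hρ'
    have h8 : (35 : ℝ) / 2 ≤ (7 / 2) ^ ((16 : ℝ) / 7) := by
      have h9 : ((35 : ℝ) / 2) = (((35 : ℝ) / 2) ^ (7 : ℝ)) ^ ((1 : ℝ) / 7) := by
        rw [← Real.rpow_mul (by norm_num)]
        norm_num
      have h10 : ((7 : ℝ) / 2) ^ ((16 : ℝ) / 7) = (((7 : ℝ) / 2) ^ (16 : ℝ)) ^ ((1 : ℝ) / 7) := by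
        rw [← Real.rpow_mul (by norm_num)]
        norm_num
      rw [h9, h10]
      apply Real.rpow_le_rpow (by positivity) _ (by norm_num)
      have a : ((35 : ℝ) / 2) ^ (7 : ℝ) = ((35 : ℝ) / 2) ^ (7 : ℕ) := by
        exact_mod_cast Real.rpow_natCast ((35 : ℝ) / 2) 7
      have b : ((7 : ℝ) / 2) ^ (16 : ℝ) = ((7 : ℝ) / 2) ^ (16 : ℕ) := by
        exact_mod_cast Real.rpow_natCast ((7 : ℝ) / 2) 16
      rw [a, b]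
      norm_num
    linarith
  calc (14 : ℝ) * 4 ^ a₁ * 4 ^ a₂ * 5 ^ a₃ = 14 * (4 ^ a₁ * 4 ^ a₂ * 5 ^ a₃) := by ring
    _ = 4 ^ ρ * (14 * (5 / 4) ^ a₃) := by rw [e1]; ring
    _ < 4 ^ ρ * (7 / 2) ^ ρ := by
        apply mul_lt_mul_of_pos_left _ h4
        linarith
    _ = 14 ^ ρ := e2.symm

/-- **`T` is unbounded at every Hölder tuple with `r ≤ 7/16`.** -/
theorem not_boundedAt_of_le {p₁ p₂ p₃ r : ℝ≥0∞} (hH : IsHolder p₁ p₂ p₃ r) (hr : r ≤ 7 / 16) :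
    ¬ BoundedAt p₁ p₂ p₃ r := by
  apply not_boundedAt_14 hH
  apply cond14 (inv_toReal_mem hH.lt₁).1 (inv_toReal_mem hH.lt₂).1 (inv_toReal_mem hH.lt₃).1
    (inv_toReal_mem hH.lt₃).2 hH.toReal_rel
  have hpos : 0 < r.toReal := ENNReal.toReal_pos hH.pos.ne' hH.fin.ne
  have hle : r.toReal ≤ 7 / 16 := by
    have h := ENNReal.toReal_mono (b := (7 / 16 : ℝ≥0∞)) (by
      exact ENNReal.div_ne_top (by norm_num) (by norm_num)) hr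
    rw [ENNReal.toReal_div] at h
    simpa using h
  rw [le_inv_comm₀ (by norm_num) hpos]
  norm_num
  linarith

end Vale.Agent.Lib.P141
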