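import Vale.Agent.Lib.P141.Lower

/-!
# P141: testing boundedness on one configuration
-/

open MeasureTheory Filter Topology
open scoped ENNReal NNReal

namespace Vale.Agent.Lib.P141

private lemma one_div_ne_top_of_one_lt {p : ℝ≥0∞} (h : 1 < p) : 1 / p ≠ ∞ := by
  rw [one_div]
  exact ENNReal.inv_ne_top.2 (ne_of_gt (lt_trans zero_lt_one h))

/-- real form of the Hölder relation (`ENNReal.toReal_add`, `ENNReal.toReal_inv`; `1/p_i ≤ 1` is finite) -/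
lemma IsHolder.toReal_rel {p₁ p₂ p₃ r : ℝ≥0∞} (h : IsHolder p₁ p₂ p₃ r) :
    r.toReal⁻¹ = p₁.toReal⁻¹ + p₂.toReal⁻¹ + p₃.toReal⁻¹ := by
  have h1 := one_div_ne_top_of_one_lt h.lt₁
  have h2 := one_div_ne_top_of_one_lt h.lt₂
  have h3 := one_div_ne_top_of_one_lt h.lt₃
  have e := congrArg ENNReal.toReal h.rel
  rw [ENNReal.toReal_add (ENNReal.add_ne_top.2 ⟨h1, h2⟩) h3, ENNReal.toReal_add h1 h2] at e
  simpa only [one_div, ENNReal.toReal_inv] using e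

/-- `0 ≤ 1/p < 1` for `1 < p ≤ ∞` (with `∞.toReal⁻¹ = 0`) -/
lemma inv_toReal_mem {p : ℝ≥0∞} (h : 1 < p) : 0 ≤ p.toReal⁻¹ ∧ p.toReal⁻¹ < 1 := by
  refine ⟨inv_nonneg.2 ENNReal.toReal_nonneg, ?_⟩
  by_cases hp : p = ∞
  · subst hp
    simp
  · have h1 : 1 < p.toReal := by
      have := (ENNReal.toReal_lt_toReal ENNReal.one_ne_top hp).2 h
      simpa using this
    exact inv_lt_one_of_one_lt₀ h1

/-- **Real form of the test of boundedness on one configuration.** Apply the definition of `BoundedAt` to the three combs,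
`eLpNorm_triT_lower`, `eLpNorm_combS_le`, and pass to real numbers (`ENNReal.ofReal_rpow_of_nonneg`,
`ENNReal.ofReal_mul`, `ENNReal.ofReal_le_ofReal_iff`, `ENNReal.coe_nnreal_eq`). -/
theorem config_ineq {p₁ p₂ p₃ r : ℝ≥0∞} (hr0 : r ≠ 0) (hr : r ≠ ∞) (hB : BoundedAt p₁ p₂ p₃ r) :
    ∃ C : ℝ, 0 ≤ C ∧ ∀ (S₁ S₂ S₃ : Finset ℤ) (M : ℝ) (G : Finset (ℤ × ℤ)), 1 ≤ M → Sep S₁ S₂ M →
      (∀ g ∈ G, g.1 - g.2 ∈ S₁ ∧ g.1 - 2 * g.2 ∈ S₂ ∧ g.1 - 3 * g.2 ∈ S₃) →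
      1 / (32 * M) * (((G.image Prod.fst).card : ℝ) / 16) ^ r.toReal⁻¹ ≤
        C * (((S₁.card : ℝ) / 2) ^ p₁.toReal⁻¹ * ((S₂.card : ℝ) / 2) ^ p₂.toReal⁻¹ *
          ((S₃.card : ℝ) / 2) ^ p₃.toReal⁻¹) := by
  obtain ⟨C, hC⟩ := hB
  refine ⟨(C : ℝ), C.coe_nonneg, ?_⟩
  intro S₁ S₂ S₃ M G hM hsep hG
  have h1 := eLpNorm_triT_lower hM hsep G hG hr0 hr
  have h2 := hC (combS S₁) (combS S₂) (combS S₃)
  have h3 : (C : ℝ≥0∞) * (eLpNorm (combS S₁) p₁ volume * eLpNorm (combS S₂) p₂ volume *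
      eLpNorm (combS S₃) p₃ volume) ≤
      (C : ℝ≥0∞) * (ENNReal.ofReal ((S₁.card : ℝ) / 2) ^ p₁.toReal⁻¹ *
        ENNReal.ofReal ((S₂.card : ℝ) / 2) ^ p₂.toReal⁻¹ *
        ENNReal.ofReal ((S₃.card : ℝ) / 2) ^ p₃.toReal⁻¹) := by
    gcongr
    · exact eLpNorm_combS_le S₁ p₁
    · exact eLpNorm_combS_le S₂ p₂
    · exact eLpNorm_combS_le S₃ p₃
  have h4 := le_trans h1 (le_trans h2 h3)
  have n0 : ∀ q : ℝ≥0∞, 0 ≤ q.toReal⁻¹ := fun q => inv_nonneg.2 ENNReal.toReal_nonneg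
  have c0 : ∀ S : Finset ℤ, (0 : ℝ) ≤ (S.card : ℝ) / 2 := fun S => by positivity
  have g0 : (0 : ℝ) ≤ ((G.image Prod.fst).card : ℝ) / 16 := by positivity
  have m0 : (0 : ℝ) ≤ 1 / (32 * M) := by positivity
  rw [ENNReal.ofReal_rpow_of_nonneg g0 (n0 r), ENNReal.ofReal_rpow_of_nonneg (c0 S₁) (n0 p₁),
    ENNReal.ofReal_rpow_of_nonneg (c0 S₂) (n0 p₂), ENNReal.ofReal_rpow_of_nonneg (c0 S₃) (n0 p₃),
    ← ENNReal.ofReal_mul m0, ← ENNReal.ofReal_mul (Real.rpow_nonneg (c0 S₁) _),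
    ← ENNReal.ofReal_mul (mul_nonneg (Real.rpow_nonneg (c0 S₁) _) (Real.rpow_nonneg (c0 S₂) _)),
    ← ENNReal.ofReal_coe_nnreal (p := C), ← ENNReal.ofReal_mul C.coe_nonneg] at h4
  refine (ENNReal.ofReal_le_ofReal_iff ?_).1 h4
  have := Real.rpow_nonneg (c0 S₁) p₁.toReal⁻¹
  have := Real.rpow_nonneg (c0 S₂) p₂.toReal⁻¹
  have := Real.rpow_nonneg (c0 S₃) p₃.toReal⁻¹
  have := C.coe_nonneg
  positivity

end Vale.Agent.Lib.P141
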