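import Vale.Agent.Lib.P141.Patterns

/-!
# P141: unboundedness stated with an explicit pointwise limit

The theorems of `Main.lean` and `Patterns.lean` only test boundedness on combs, for which the principal value is a
genuine limit.  Here the same argument is run with this weaker hypothesis.
-/

open MeasureTheory Filter Topology
open scoped ENNReal NNReal

namespace Vale.Agent.Lib.P141

variable {S₁ S₂ S₃ : Finset ℤ} {M : ℝ}

/-- for combs the truncations converge (they are eventually constant) -/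
lemma tendsto_truncT_comb (hsep : Sep S₁ S₂ M) (x : ℝ) :
    Tendsto (fun q : ℝ × ℝ => truncT q.1 q.2 (combS S₁) (combS S₂) (combS S₃) x)
      ((𝓝[>] (0 : ℝ)) ×ˢ (atTop : Filter ℝ))
      (𝓝 (triT (combS S₁) (combS S₂) (combS S₃) x)) := by
  rw [triT_comb hsep]
  have h1 : ∀ᶠ a in 𝓝[>] (0 : ℝ), a ≤ 1 / 2 :=
    eventually_nhdsWithin_of_eventually_nhds (eventually_le_nhds (by norm_num))
  have h2 : ∀ᶠ b in (atTop : Filter ℝ), M + 1 / 2 ≤ b := eventually_ge_atTop _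
  have h3 : ∀ᶠ q in (𝓝[>] (0 : ℝ)) ×ˢ (atTop : Filter ℝ), q.1 ≤ 1 / 2 ∧ M + 1 / 2 ≤ q.2 :=
    h1.prod_mk h2
  refine tendsto_const_nhds.congr' ?_
  filter_upwards [h3] with q hq
  exact (truncT_comb hsep hq.1 hq.2 x).symm

/-- `config_ineq` with boundedness assumed on separated combs only -/
theorem config_ineq' {p₁ p₂ p₃ r : ℝ≥0∞} (hr0 : r ≠ 0) (hr : r ≠ ∞) {C : ℝ≥0}
    (hC : ∀ (S₁ S₂ S₃ : Finset ℤ) (M : ℝ), Sep S₁ S₂ M →
      eLpNorm (triT (combS S₁) (combS S₂) (combS S₃)) r volume ≤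
        C * (eLpNorm (combS S₁) p₁ volume * eLpNorm (combS S₂) p₂ volume *
          eLpNorm (combS S₃) p₃ volume)) :
    ∃ C : ℝ, 0 ≤ C ∧ ∀ (S₁ S₂ S₃ : Finset ℤ) (M : ℝ) (G : Finset (ℤ × ℤ)), 1 ≤ M → Sep S₁ S₂ M →
      (∀ g ∈ G, g.1 - g.2 ∈ S₁ ∧ g.1 - 2 * g.2 ∈ S₂ ∧ g.1 - 3 * g.2 ∈ S₃) →
      1 / (32 * M) * (((G.image Prod.fst).card : ℝ) / 16) ^ r.toReal⁻¹ ≤
        C * (((S₁.card : ℝ) / 2) ^ p₁.toReal⁻¹ * ((S₂.card : ℝ) / 2) ^ p₂.toReal⁻¹ *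
          ((S₃.card : ℝ) / 2) ^ p₃.toReal⁻¹) := by
  refine ⟨(C : ℝ), C.coe_nonneg, ?_⟩
  intro S₁ S₂ S₃ M G hM hsep hG
  have h1 := eLpNorm_triT_lower hM hsep G hG hr0 hr
  have h2 := hC S₁ S₂ S₃ M hsep
  have h3 : (C : ℝ≥0∞) * (eLpNorm (combS S₁) p₁ volume * eLpNorm (combS S₂) p₂ volume *
      eLpNorm (combS S₃) p₃ volume) ≤
      (C : ℝ≥0∞) * (ENNReal.ofReal ((S₁.card : ℝ) / 2) ^ p₁.toReal⁻¹ *
        ENNReal.ofReal ((S₂.card : ℝ) / 2) ^ p₂.toReal⁻¹ *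
        ENNReal.ofReal ((S₃.card : ℝ) / 2) ^ p₃.toReal⁻¹) := by
    gcongr
    · exact eLpNorm_combS_le S₁ p₁
    · exact eLpNorm_combS_le S₂ p₂
    · exact eLpNorm_combS_le S₃ p₃
  have h4 := le_trans h1 (le_trans h2 h3)
  have n0 : ∀ q : ℝ≥0∞, 0 ≤ q.toReal⁻¹ := fun q => inv_nonneg.2 ENNReal.toReal_nonneg
  have c0 : ∀ S : Finset ℤ, (0 : ℝ) ≤ (S.card : ℝ) / 2 := fun S => by positivity
  have g0 : (0 : ℝ) ≤ ((G.image Prod.fst).card : ℝ) / 16 := by positivity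
  have m0 : (0 : ℝ) ≤ 1 / (32 * M) := by positivity
  rw [ENNReal.ofReal_rpow_of_nonneg g0 (n0 r), ENNReal.ofReal_rpow_of_nonneg (c0 S₁) (n0 p₁),
    ENNReal.ofReal_rpow_of_nonneg (c0 S₂) (n0 p₂), ENNReal.ofReal_rpow_of_nonneg (c0 S₃) (n0 p₃),
    ← ENNReal.ofReal_mul m0, ← ENNReal.ofReal_mul (Real.rpow_nonneg (c0 S₁) _),
    ← ENNReal.ofReal_mul (mul_nonneg (Real.rpow_nonneg (c0 S₁) _) (Real.rpow_nonneg (c0 S₂) _)),
    ← ENNReal.ofReal_coe_nnreal (p := C), ← ENNReal.ofReal_mul C.coe_nonneg] at h4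
  refine (ENNReal.ofReal_le_ofReal_iff ?_).1 h4
  have := Real.rpow_nonneg (c0 S₁) p₁.toReal⁻¹
  have := Real.rpow_nonneg (c0 S₂) p₂.toReal⁻¹
  have := Real.rpow_nonneg (c0 S₃) p₃.toReal⁻¹
  have := C.coe_nonneg
  positivity

/-- the pattern theorem, with an explicit pair of combs violating any given constant -/
theorem exists_comb_of_pattern {P : Finset (ℤ × ℤ)} {b : ℤ} (hb : 2 ≤ b) (hP : DistinctMod P b)
    {p₁ p₂ p₃ r : ℝ≥0∞} (hH : IsHolder p₁ p₂ p₃ r)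
    (hcond : (b : ℝ) * ((P.image (proj 1)).card : ℝ) ^ p₁.toReal⁻¹ *
        ((P.image (proj 2)).card : ℝ) ^ p₂.toReal⁻¹ * ((P.image (proj 3)).card : ℝ) ^ p₃.toReal⁻¹ <
      (P.card : ℝ) ^ r.toReal⁻¹) (C : ℝ≥0) :
    ∃ (S₁ S₂ S₃ : Finset ℤ) (M : ℝ), Sep S₁ S₂ M ∧
      C * (eLpNorm (combS S₁) p₁ volume * eLpNorm (combS S₂) p₂ volume *
          eLpNorm (combS S₃) p₃ volume) <
        eLpNorm (triT (combS S₁) (combS S₂) (combS S₃)) r volume := by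
  by_contra hcon
  push Not at hcon
  obtain ⟨C, hC, hineq⟩ := config_ineq' (p₁ := p₁) (p₂ := p₂) (p₃ := p₃) hH.pos.ne' hH.fin.ne hcon
  obtain ⟨K, hK, hconf⟩ := exists_config hb hP
  have hb0 : (0 : ℝ) < b := by exact_mod_cast (by linarith : (0 : ℤ) < b)
  have hb1 : (1 : ℝ) ≤ b := by exact_mod_cast (by linarith : (1 : ℤ) ≤ b)
  have hne : P.Nonempty := by
    rw [Finset.nonempty_iff_ne_empty]
    intro h0
    have hρ : r.toReal⁻¹ ≠ 0 := inv_ne_zero (ENNReal.toReal_pos hH.pos.ne' hH.fin.ne).ne'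
    rw [h0, Finset.card_empty, Nat.cast_zero, Real.zero_rpow hρ] at hcond
    have : (0 : ℝ) ≤ (b : ℝ) * (((∅ : Finset (ℤ × ℤ)).image (proj 1)).card : ℝ) ^ p₁.toReal⁻¹ *
        (((∅ : Finset (ℤ × ℤ)).image (proj 2)).card : ℝ) ^ p₂.toReal⁻¹ *
        (((∅ : Finset (ℤ × ℤ)).image (proj 3)).card : ℝ) ^ p₃.toReal⁻¹ := by positivity
    linarith
  refine no_geometric hb0 hK hC (Finset.card_pos.mpr (hne.image _))
    (Finset.card_pos.mpr (hne.image _)) (Finset.card_pos.mpr (hne.image _))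
    (inv_nonneg.mpr ENNReal.toReal_nonneg) (inv_toReal_mem hH.lt₁).1
    (inv_toReal_mem hH.lt₂).1 (inv_toReal_mem hH.lt₃).1 hcond ?_
  intro k
  obtain ⟨G, S₁, S₂, S₃, hsep, hG, h0, h1, h2, h3⟩ := hconf k
  refine ⟨S₁.card, S₂.card, S₃.card, h1, h2, h3, ?_⟩
  have hM : 1 ≤ K * (b : ℝ) ^ k := by
    have : (1 : ℝ) ≤ (b : ℝ) ^ k := one_le_pow₀ hb1
    nlinarith
  have := hineq S₁ S₂ S₃ (K * (b : ℝ) ^ k) G hM hsep hG
  rw [h0] at this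
  exact this

/-- every Hölder tuple with `r ≤ 7/16` -/
theorem exists_comb_of_le {p₁ p₂ p₃ r : ℝ≥0∞} (hH : IsHolder p₁ p₂ p₃ r) (hr : r ≤ 7 / 16)
    (C : ℝ≥0) :
    ∃ (S₁ S₂ S₃ : Finset ℤ) (M : ℝ), Sep S₁ S₂ M ∧
      C * (eLpNorm (combS S₁) p₁ volume * eLpNorm (combS S₂) p₂ volume *
          eLpNorm (combS S₃) p₃ volume) <
        eLpNorm (triT (combS S₁) (combS S₂) (combS S₃)) r volume := by
  refine exists_comb_of_pattern (P := P14) (b := 14) (by norm_num) P14_distinct hH ?_ C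
  obtain ⟨h0, h1, h2, h3⟩ := P14_card
  rw [h0, h1, h2, h3]
  have hcond : (14 : ℝ) * 4 ^ p₁.toReal⁻¹ * 4 ^ p₂.toReal⁻¹ * 5 ^ p₃.toReal⁻¹ < 14 ^ r.toReal⁻¹ := by
    apply cond14 (inv_toReal_mem hH.lt₁).1 (inv_toReal_mem hH.lt₂).1 (inv_toReal_mem hH.lt₃).1
      (inv_toReal_mem hH.lt₃).2 hH.toReal_rel
    have hpos : 0 < r.toReal := ENNReal.toReal_pos hH.pos.ne' hH.fin.ne
    have hle : r.toReal ≤ 7 / 16 := by
      have h := ENNReal.toReal_mono (b := (7 / 16 : ℝ≥0∞)) (by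
        exact ENNReal.div_ne_top (by norm_num) (by norm_num)) hr
      rw [ENNReal.toReal_div] at h
      simpa using h
    rw [le_inv_comm₀ (by norm_num) hpos]
    norm_num
    linarith
  exact_mod_cast hcond

end Vale.Agent.Lib.P141
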